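import Mathlib
import Vale.Agent.P195.Final

universe u w

open CategoryTheory Abelian

theorem Vale.Agent.Results.P195.RadCubeZero.result
    (k : Type w) (R : Type u) [CommRing k] [IsArtinianRing k] [Ring R] [Algebra k R]
    [Module.Finite k R] (hrad : Ring.jacobson R ^ 3 = ⊥)
    (M : Type u) [AddCommGroup M] [Module R M] [Module.Finite R M]
    (hAR : ∀ i : ℕ, 1 ≤ i →
      Subsingleton (Ext (ModuleCat.of R M) (ModuleCat.of R (M × R)) i)) :
    Module.Projective R M := by
  have h3 : ∀ x ∈ Ring.jacobson R, ∀ y ∈ Ring.jacobson R, ∀ z ∈ Ring.jacobson R,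
      x * y * z = 0 := by
    intro x hx y hy z hz
    have hmem : x * y * z ∈ Ring.jacobson R ^ 3 := by
      rw [Submodule.pow_succ, Submodule.pow_succ, Submodule.pow_one]
      exact Ideal.mul_mem_mul (Ideal.mul_mem_mul hx hy) hz
    rw [hrad] at hmem
    exact hmem
  refine Vale.Agent.P195.main_thm k R h3 M ?_ ?_
  · intro i hi
    exact Vale.Agent.P195.ext_retract (ModuleCat.of R M)
      (ModuleCat.ofHom (LinearMap.inl R M R)) (ModuleCat.ofHom (LinearMap.fst R M R)) rfl i
      (hAR i hi)
  · intro i hi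
    exact Vale.Agent.P195.ext_retract (ModuleCat.of R M)
      (ModuleCat.ofHom (LinearMap.inr R M R)) (ModuleCat.ofHom (LinearMap.snd R M R)) rfl i
      (hAR i hi)
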