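import Mathlib
import Vale.Agent.Results.P195.RadCubeZero

universe u w

open CategoryTheory Abelian

/-- The Auslander-Reiten conjecture for finite-dimensional algebras over a field whose radical
has cube zero, with the two vanishing conditions stated separately. -/
theorem Vale.Agent.Results.P195.S_FieldCase.result
    (k : Type w) (R : Type u) [Field k] [Ring R] [Algebra k R]
    [FiniteDimensional k R] (hrad : Ring.jacobson R ^ 3 = ⊥)
    (M : Type u) [AddCommGroup M] [Module R M] [Module.Finite R M]
    (hMM : ∀ i : ℕ, 1 ≤ i → Subsingleton (Ext (ModuleCat.of R M) (ModuleCat.of R M) i))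
    (hMR : ∀ i : ℕ, 1 ≤ i → Subsingleton (Ext (ModuleCat.of R M) (ModuleCat.of R R) i)) :
    Module.Projective R M := by
  have h3 : ∀ x ∈ Ring.jacobson R, ∀ y ∈ Ring.jacobson R, ∀ z ∈ Ring.jacobson R,
      x * y * z = 0 := by
    intro x hx y hy z hz
    have hmem : x * y * z ∈ Ring.jacobson R ^ 3 := by
      rw [Submodule.pow_succ, Submodule.pow_succ, Submodule.pow_one]
      exact Ideal.mul_mem_mul (Ideal.mul_mem_mul hx hy) hz
    rw [hrad] at hmem
    exact hmem
  exact Vale.Agent.P195.main_thm k R h3 M hMM hMR
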