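import Mathlib
import Vale.Agent.Results.P195.RadCubeZero

universe u w

open CategoryTheory Abelian

/-- The Auslander-Reiten conjecture for Artin algebras whose radical has cube zero, with the two
vanishing conditions stated separately and in contrapositive form: a finitely generated module
that is not projective and has no extensions by the regular module in positive degrees has a
nonzero self-extension group in some positive degree. -/
theorem Vale.Agent.Results.P195.T_ArtinTwoConditions.result
    (k : Type w) (R : Type u) [CommRing k] [IsArtinianRing k] [Ring R] [Algebra k R]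
    [Module.Finite k R] (hrad : Ring.jacobson R ^ 3 = ⊥)
    (M : Type u) [AddCommGroup M] [Module R M] [Module.Finite R M]
    (hnp : ¬ Module.Projective R M)
    (hMR : ∀ i : ℕ, 1 ≤ i → Subsingleton (Ext (ModuleCat.of R M) (ModuleCat.of R R) i)) :
    ∃ i : ℕ, 1 ≤ i ∧ Nontrivial (Ext (ModuleCat.of R M) (ModuleCat.of R M) i) := by
  by_contra hcon
  have hMM : ∀ i : ℕ, 1 ≤ i → Subsingleton (Ext (ModuleCat.of R M) (ModuleCat.of R M) i) := by
    intro i hi
    by_contra hns
    exact hcon ⟨i, hi, not_subsingleton_iff_nontrivial.mp hns⟩
  have h3 : ∀ x ∈ Ring.jacobson R, ∀ y ∈ Ring.jacobson R, ∀ z ∈ Ring.jacobson R,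
      x * y * z = 0 := by
    intro x hx y hy z hz
    have hmem : x * y * z ∈ Ring.jacobson R ^ 3 := by
      rw [Submodule.pow_succ, Submodule.pow_succ, Submodule.pow_one]
      exact Ideal.mul_mem_mul (Ideal.mul_mem_mul hx hy) hz
    rw [hrad] at hmem
    exact hmem
  exact hnp (Vale.Agent.P195.main_thm k R h3 M hMM hMR)
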